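import Mathlib

/-!
# The abstract counting step of `noK8`
-/

set_option autoImplicit false

namespace Crest.Agent.R177.NoK8Aux

open Finset

/-- an even graph on `Fin 8` given by the parity function `a i j + a j i`, which is nonzero, needs
three ordered pairs with `a = 1` -/
theorem three_le (S : Finset (Fin 8 × Fin 8)) (b : Fin 8 → Fin 8 → ZMod 2)
    (hb : ∀ i j, i ≠ j → b i j ≠ 0 → (i, j) ∈ S ∨ (j, i) ∈ S)
    (heven : ∀ i, ∑ j ∈ univ.erase i, b i j = 0) (hsymm : ∀ i j, i ≠ j → b i j = b j i)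
    {i j : Fin 8} (hij : i ≠ j) (h : b i j ≠ 0) : 3 ≤ S.card := by
  have key : ∀ i j : Fin 8, i ≠ j → b i j ≠ 0 → ∃ k, k ≠ i ∧ k ≠ j ∧ b i k ≠ 0 := by
    intro i j hij h
    by_contra hne
    push Not at hne
    have h1 := heven i
    rw [Finset.sum_eq_single j] at h1
    · exact h h1
    · intro k hk hkj
      exact hne k (Finset.ne_of_mem_erase hk) hkj
    · intro hj
      exact absurd (Finset.mem_erase.mpr ⟨hij.symm, Finset.mem_univ _⟩) hj
  obtain ⟨k, hki, hkj, hk⟩ := key i j hij h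
  obtain ⟨l, hlj, hli, hl⟩ := key j i hij.symm (by rwa [← hsymm i j hij])
  have h1 := hb i j hij h
  have h2 := hb i k hki.symm hk
  have h3 := hb j l hlj.symm hl
  rw [show (3 : ℕ) = 2 + 1 from rfl, Nat.succ_le_iff, Finset.two_lt_card]
  rcases h1 with h1 | h1 <;> rcases h2 with h2 | h2 <;> rcases h3 with h3 | h3 <;>
    refine ⟨_, h1, _, h2, _, h3, ?_, ?_, ?_⟩ <;>
    simp only [ne_eq, Prod.mk.injEq, not_and] <;> intro h4 h5 <;> subst_vars <;> simp_all

/-- the pairs `0 < i < j` -/
abbrev Pr : Type := {x : Fin 8 × Fin 8 // 0 < x.1 ∧ x.1 < x.2}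

theorem card_Pr : Fintype.card Pr = 21 := by decide

theorem count_false {Q : Type} [DecidableEq Q] (c : Fin 8 → Fin 8 → Q)
    (heven : ∀ r i, ∑ j ∈ univ.erase i,
      ((if c i j = r then (1 : ZMod 2) else 0) + (if c j i = r then 1 else 0)) = 0)
    (hsurj : ∀ x : Pr, ∃ g : Q → ZMod 2, ∀ y : Pr,
      g (c y.1.1 y.1.2) + g (c y.1.2 y.1.1) = if y = x then 1 else 0) : False := by
  classical
  set O : Finset (Fin 8 × Fin 8) := univ.filter (fun x => x.1 ≠ x.2) with hO
  have hOc : O.card = 56 := by decide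
  set v : Q → (Pr → ZMod 2) := fun r y =>
    (if c y.1.1 y.1.2 = r then (1 : ZMod 2) else 0) + (if c y.1.2 y.1.1 = r then 1 else 0) with hv
  set I : Finset Q := O.image (fun x => c x.1 x.2) with hI
  set R : Finset Q := I.filter (fun r => v r ≠ 0) with hR
  -- every region of `R` has three darts
  have h3 : ∀ r ∈ R, 3 ≤ (O.filter (fun x => c x.1 x.2 = r)).card := by
    intro r hr
    have hr' : v r ≠ 0 := (Finset.mem_filter.mp hr).2
    obtain ⟨y, hy⟩ := Function.ne_iff.mp hr'
    refine three_le _ (fun i j => (if c i j = r then (1 : ZMod 2) else 0) +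
      (if c j i = r then 1 else 0)) ?_ (heven r) (fun i j _ => add_comm _ _) (ne_of_lt y.2.2) hy
    intro i j hij hb
    by_contra hne
    simp only [hO, Finset.mem_filter, Finset.mem_univ, true_and, not_or, not_and] at hne
    exact hb (by simp [hne.1 hij, hne.2 hij.symm])
  have hcard : 3 * R.card ≤ 56 := by
    rw [← hOc]
    calc 3 * R.card = ∑ _r ∈ R, 3 := by simp [mul_comm]
      _ ≤ ∑ r ∈ R, (O.filter (fun x => c x.1 x.2 = r)).card := Finset.sum_le_sum h3
      _ ≤ ∑ r ∈ I, (O.filter (fun x => c x.1 x.2 = r)).card :=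
        Finset.sum_le_sum_of_subset (Finset.filter_subset _ _)
      _ = O.card := (Finset.card_eq_sum_card_image _ _).symm
  -- the vectors `v r` span
  have hspan : Submodule.span (ZMod 2) ((R.image v : Finset (Pr → ZMod 2)) : Set (Pr → ZMod 2)) = ⊤ := by
    rw [eq_top_iff, ← (Pi.basisFun (ZMod 2) Pr).span_eq, Submodule.span_le]
    rintro _ ⟨x, rfl⟩
    obtain ⟨g, hg⟩ := hsurj x
    have h1 : (Pi.basisFun (ZMod 2) Pr) x = ∑ r ∈ I, g r • v r := by
      funext y
      have hy : y.1.1 ≠ y.1.2 := ne_of_lt y.2.2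
      have m1 : c y.1.1 y.1.2 ∈ I :=
        Finset.mem_image.mpr ⟨y.1, by simp [hO, hy], rfl⟩
      have m2 : c y.1.2 y.1.1 ∈ I :=
        Finset.mem_image.mpr ⟨(y.1.2, y.1.1), by simp [hO, hy.symm], rfl⟩
      simp only [Pi.basisFun_apply, Finset.sum_apply, Pi.smul_apply, hv, smul_eq_mul, mul_add,
        Finset.sum_add_distrib, mul_ite, mul_one, mul_zero, Finset.sum_ite_eq, m1, m2, if_true]
      rw [hg y, Pi.single_apply]
    rw [h1]
    refine Submodule.sum_mem _ (fun r hr => Submodule.smul_mem _ _ ?_)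
    by_cases h0 : v r = 0
    · rw [h0]; exact Submodule.zero_mem _
    · exact Submodule.subset_span (by
        simp only [Finset.coe_image]
        exact ⟨r, by simp [hR, hr, h0], rfl⟩)
  have h21 : 21 ≤ R.card := by
    have h1 := finrank_span_finset_le_card (R := ZMod 2) (R.image v)
    rw [Set.finrank, hspan, finrank_top, Module.finrank_fintype_fun_eq_card, card_Pr] at h1
    exact h1.trans Finset.card_image_le
  omega

end Crest.Agent.R177.NoK8Aux
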