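import Crest.Agent.R177.Defs

/-!
# Cycles of the piece graph are coboundaries
-/

set_option autoImplicit false

namespace Crest.Agent.R177.NoK8Aux

open Equiv Finset

variable {D P : Type} {φ : Perm D} (Pi : Pieces φ P)

/-- the sum of `z` over the piece `p` -/
def psum (z : D → ZMod 2) (p : P) : ZMod 2 := ∑ i ∈ range (Pi.len p), z (Pi.dt p i)

theorem psum_add (z z' : D → ZMod 2) (p : P) : psum Pi (z + z') p = psum Pi z p + psum Pi z' p := by
  simp [psum, Finset.sum_add_distrib]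

theorem psum_eq [Fintype D] [DecidableEq P] (z : D → ZMod 2) (p : P) :
    psum Pi z p = ∑ d ∈ univ.filter (fun d => Pi.pc d = p), z d := by
  unfold psum
  refine Finset.sum_bij' (fun i _ => Pi.dt p i) (fun d _ => Pi.idx d) ?_ ?_ ?_ ?_ ?_
  · intro i hi
    simp [Pi.pc_dt p i (Finset.mem_range.mp hi)]
  · intro d hd
    have h := (Finset.mem_filter.mp hd).2
    rw [Finset.mem_range, ← h]
    exact Pi.idx_lt d
  · intro i hi
    exact Pi.idx_dt p i (Finset.mem_range.mp hi)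
  · intro d hd
    have h := (Finset.mem_filter.mp hd).2
    rw [← h]
    exact Pi.dt_pc d
  · intro i _
    rfl

theorem idx_next (d : D) (h : Pi.idx d + 1 = Pi.len (Pi.pc d)) : Pi.idx (φ d) = 0 := by
  by_contra hne
  obtain ⟨k, hk⟩ := Nat.exists_eq_succ_of_ne_zero hne
  have h1 := Pi.dt_pc (φ d)
  have h2 := Pi.idx_lt (φ d)
  rw [hk] at h1 h2
  rw [Nat.succ_eq_add_one, Pi.dt_succ] at h1
  have h3 : Pi.dt (Pi.pc (φ d)) k = d := φ.injective h1
  have h4 := Pi.pc_dt (Pi.pc (φ d)) k (by omega)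
  have h5 := Pi.idx_dt (Pi.pc (φ d)) k (by omega)
  rw [h3] at h4 h5
  rw [h4] at h
  omega

theorem exists_pot (z : D → ZMod 2) (hz : ∀ p, psum Pi z p = 0) :
    ∃ ψ : D → ZMod 2, ∀ d, ψ (φ d) + ψ d = z d := by
  refine ⟨fun d => ∑ k ∈ range (Pi.idx d), z (Pi.dt (Pi.pc d) k), fun d => ?_⟩
  have hlt := Pi.idx_lt d
  have hφ : φ d = Pi.dt (Pi.pc d) (Pi.idx d + 1) := by rw [Pi.dt_succ, Pi.dt_pc]
  rcases Nat.lt_or_ge (Pi.idx d + 1) (Pi.len (Pi.pc d)) with h | h
  · have h1 : Pi.pc (φ d) = Pi.pc d := by rw [hφ]; exact Pi.pc_dt _ _ h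
    have h2 : Pi.idx (φ d) = Pi.idx d + 1 := by rw [hφ]; exact Pi.idx_dt _ _ h
    simp only [h1, h2, Finset.sum_range_succ, Pi.dt_pc]
    rw [add_right_comm, CharTwo.add_self_eq_zero, zero_add]
  · have h1 : Pi.idx d + 1 = Pi.len (Pi.pc d) := by omega
    have h2 := hz (Pi.pc d)
    unfold psum at h2
    rw [← h1, Finset.sum_range_succ, Pi.dt_pc] at h2
    simp only [idx_next Pi d h1, Finset.range_zero, Finset.sum_empty, zero_add]
    exact (CharTwo.add_eq_zero.mp h2)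

theorem psum_cob (χ : D → ZMod 2) (p : P) :
    psum Pi (fun d => χ (φ d) + χ d) p = χ (Pi.dt p (Pi.len p)) + χ (Pi.dt p 0) := by
  unfold psum
  have := Finset.sum_range_sub (fun i => χ (Pi.dt p i)) (Pi.len p)
  simp only [CharTwo.sub_eq_add, Pi.dt_succ] at this
  exact this

/-- the edge through the dart `d` -/
def edgeFn [DecidableEq D] (α : Perm D) (d : D) : D → ZMod 2 :=
  fun x => (if x = d then 1 else 0) + (if x = α d then 1 else 0)

theorem edgeFn_α [DecidableEq D] {α : Perm D} (hα : ∀ d, α (α d) = d) (d x : D) :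
    edgeFn α d (α x) = edgeFn α d x := by
  unfold edgeFn
  have h1 : α x = d ↔ x = α d := ⟨fun h => by rw [← h, hα], fun h => by rw [h, hα]⟩
  simp only [h1, α.injective.eq_iff]
  exact add_comm _ _

theorem edgeFn_ne [DecidableEq D] {α : Perm D} {d x : D} (h : edgeFn α d x ≠ 0) :
    x = d ∨ x = α d := by
  by_contra hne
  push Not at hne
  exact h (by simp [edgeFn, hne.1, hne.2])

theorem psum_edgeFn [Fintype D] [DecidableEq D] [DecidableEq P] (α : Perm D) (d : D) (q : P) :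
    psum Pi (edgeFn α d) q =
      (if Pi.pc d = q then 1 else 0) + (if Pi.pc (α d) = q then 1 else 0) := by
  rw [psum_eq]
  simp [edgeFn, Finset.sum_add_distrib]

theorem adj_dart {α : Perm D} (hα : ∀ d, α (α d) = d) {p p' : P} (h : (Pi.graph α).Adj p p') :
    ∃ d, Pi.pc d = p ∧ Pi.pc (α d) = p' := by
  rw [Pieces.graph, SimpleGraph.fromRel_adj] at h
  rcases h.2 with h | ⟨d, h1, h2⟩
  · exact h
  · exact ⟨α d, h2, by rw [hα]; exact h1⟩

/-- paths inside a connected set of pieces -/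
theorem exists_path [Fintype D] [DecidableEq D] [DecidableEq P] {α : Perm D}
    (hα : ∀ d, α (α d) = d) {B : Set P} (hB : ((Pi.graph α).induce B).Connected)
    {p p' : P} (hp : p ∈ B) (hp' : p' ∈ B) :
    ∃ y : D → ZMod 2, (∀ d, y (α d) = y d) ∧ (∀ d, y d ≠ 0 → Pi.pc d ∈ B ∧ Pi.pc (α d) ∈ B) ∧
      ∀ q, psum Pi y q = (if p = q then 1 else 0) + (if p' = q then 1 else 0) := by
  obtain ⟨w⟩ := hB.preconnected ⟨p, hp⟩ ⟨p', hp'⟩
  suffices H : ∀ (a b : B) (_ : ((Pi.graph α).induce B).Walk a b),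
      ∃ y : D → ZMod 2, (∀ d, y (α d) = y d) ∧ (∀ d, y d ≠ 0 → Pi.pc d ∈ B ∧ Pi.pc (α d) ∈ B) ∧
      ∀ q, psum Pi y q = (if a.1 = q then 1 else 0) + (if b.1 = q then 1 else 0) from H _ _ w
  intro a b w
  induction w with
  | nil =>
    refine ⟨0, fun _ => rfl, fun d h => absurd rfl h, fun q => ?_⟩
    rw [CharTwo.add_self_eq_zero]
    simp [psum]
  | @cons u v t h _ ih =>
    obtain ⟨y, h1, h2, h3⟩ := ih
    obtain ⟨d, hd1, hd2⟩ := adj_dart Pi hα (show (Pi.graph α).Adj u.1 v.1 from h)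
    refine ⟨edgeFn α d + y, fun x => ?_, fun x hx => ?_, fun q => ?_⟩
    · simp only [_root_.Pi.add_apply, edgeFn_α hα, h1]
    · by_cases hy : y x = 0
      · have : edgeFn α d x ≠ 0 := by simpa [hy] using hx
        rcases edgeFn_ne this with rfl | rfl
        · rw [hd1, hd2]; exact ⟨u.2, v.2⟩
        · rw [hα, hd1, hd2]; exact ⟨v.2, u.2⟩
      · exact h2 x hy
    · rw [psum_add, psum_edgeFn, h3, hd1, hd2, add_assoc, ← add_assoc (ite (v.1 = q) _ _),
        CharTwo.add_self_eq_zero, zero_add]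

end Crest.Agent.R177.NoK8Aux
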