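import Crest.Agent.R177.NoK8.Cyc

/-!
# The two halves of `noK8`
-/

set_option autoImplicit false

namespace Crest.Agent.R177.NoK8Aux

open Equiv Finset

variable {D P : Type} {φ : Perm D}

/-- branch sets together with chosen darts between them -/
structure Setup (Pi : Pieces φ P) (α : Perm D) where
  B : Fin 8 → Set P
  ε : Fin 8 → Fin 8 → D
  conn : ∀ i, ((Pi.graph α).induce (B i)).Connected
  uniq : ∀ {p i j}, p ∈ B i → p ∈ B j → i = j
  e1 : ∀ i j, i ≠ j → Pi.pc (ε i j) ∈ B i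
  e2 : ∀ i j, i ≠ j → α (ε i j) = ε j i

theorem exists_setup (Pi : Pieces φ P) {α : Perm D} (hα : ∀ d, α (α d) = d)
    (h : HasCliqueMinor (Pi.graph α) 8) : Nonempty (Setup Pi α) := by
  obtain ⟨B, hconn, hdisj, hadj⟩ := h
  have hex : ∀ i j : Fin 8, i < j → ∃ d, Pi.pc d ∈ B i ∧ Pi.pc (α d) ∈ B j := by
    intro i j hij
    obtain ⟨x, hx, y, hy, h⟩ := hadj i j hij.ne
    obtain ⟨d, h1, h2⟩ := adj_dart Pi hα h
    exact ⟨d, h1 ▸ hx, h2 ▸ hy⟩
  obtain ⟨d0, -⟩ := hex 0 1 (by decide)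
  choose e he1 he2 using hex
  refine ⟨⟨B, fun i j => if h : i < j then e i j h else if h' : j < i then α (e j i h') else d0,
    hconn, ?_, fun i j hij => ?_, fun i j hij => ?_⟩⟩
  · intro p i j hi hj
    by_contra hne
    exact Set.disjoint_left.mp (hdisj i j hne) hi hj
  · rcases lt_or_gt_of_ne hij with h | h
    · simp only [h, dif_pos]; exact he1 i j h
    · simp only [h, not_lt_of_gt h, dif_pos, dif_neg, not_false_eq_true]; exact he2 j i h
  · rcases lt_or_gt_of_ne hij with h | h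
    · simp only [h, not_lt_of_gt h, dif_pos, dif_neg, not_false_eq_true]
    · simp only [h, not_lt_of_gt h, dif_pos, dif_neg, not_false_eq_true, hα]

namespace Setup

variable {Pi : Pieces φ P} {α : Perm D} (S : Setup Pi α)

theorem e3 (i j : Fin 8) (h : i ≠ j) : Pi.pc (α (S.ε i j)) ∈ S.B j := by
  rw [S.e2 i j h]; exact S.e1 j i h.symm

theorem inj (i j i' j' : Fin 8) (h : i ≠ j) (h' : i' ≠ j') (he : S.ε i j = S.ε i' j') :
    i = i' ∧ j = j' :=
  ⟨S.uniq (S.e1 i j h) (he ▸ S.e1 i' j' h'), S.uniq (S.e3 i j h) (he ▸ S.e3 i' j' h')⟩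

/-- selected darts -/
def Sel (d : D) : Prop :=
  (∃ i, Pi.pc d ∈ S.B i ∧ Pi.pc (α d) ∈ S.B i) ∨ ∃ i j, i ≠ j ∧ d = S.ε i j

/-- admissible colourings of the corners -/
def Adm (χ : D → ZMod 2) : Prop :=
  (∀ d, χ (α d) = χ (φ d)) ∧ (∀ d, ¬ S.Sel d → χ (φ d) = χ d) ∧
    ∀ p, χ (Pi.dt p (Pi.len p)) = χ (Pi.dt p 0)

theorem even [Fintype D] [DecidableEq D] [Fintype P] [DecidableEq P]
    (hα : ∀ d, α (α d) = d) (hα' : ∀ d, α d ≠ d) {χ : D → ZMod 2} (h : S.Adm χ) (i : Fin 8) :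
    ∑ j ∈ univ.erase i, (χ (S.ε i j) + χ (S.ε j i)) = 0 := by
  classical
  obtain ⟨h1, h2, h3⟩ := h
  obtain ⟨z, hz0⟩ : ∃ z : D → ZMod 2, z = fun d => χ (φ d) + χ d := ⟨_, rfl⟩
  have hz : ∀ d, z d = χ d + χ (α d) := fun d => by
    rw [hz0, h1]; exact add_comm _ _
  have hsum : ∑ d ∈ univ.filter (fun d => Pi.pc d ∈ S.B i), z d = 0 := by
    rw [← Finset.sum_fiberwise_of_maps_to (t := univ.filter (fun p => p ∈ S.B i))
      (g := Pi.pc) (by simp)]
    refine Finset.sum_eq_zero (fun p hp => ?_)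
    have h4 : psum Pi z p = 0 := by
      rw [hz0, psum_cob, h3, CharTwo.add_self_eq_zero]
    rw [psum_eq] at h4
    rw [← h4]
    refine Finset.sum_congr ?_ (fun _ _ => rfl)
    ext d
    have hp' := (Finset.mem_filter.mp hp).2
    simp only [Finset.mem_filter, Finset.mem_univ, true_and, and_iff_right_iff_imp]
    rintro rfl
    exact hp'
  rw [← Finset.sum_filter_add_sum_filter_not _ (fun d => Pi.pc (α d) ∈ S.B i)] at hsum
  rw [Finset.sum_involution (fun d _ => α d), zero_add] at hsum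
  · rw [← hsum]
    refine Finset.sum_bij_ne_zero (fun j _ _ => S.ε i j) ?_ ?_ ?_ ?_
    · intro j hj _
      have hij : i ≠ j := (Finset.ne_of_mem_erase hj).symm
      simp only [Finset.mem_filter, Finset.mem_univ, true_and]
      exact ⟨S.e1 i j hij, fun h => hij (S.uniq h (S.e3 i j hij))⟩
    · intro j hj _ j' hj' _ he
      exact (S.inj i j i j' (Finset.ne_of_mem_erase hj).symm
        (Finset.ne_of_mem_erase hj').symm he).2
    · intro d hd hzd
      simp only [Finset.mem_filter, Finset.mem_univ, true_and] at hd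
      have hs : S.Sel d := by
        by_contra hs
        exact hzd (by rw [hz, h1, h2 d hs, CharTwo.add_self_eq_zero])
      rcases hs with ⟨k, hk1, hk2⟩ | ⟨k, j, hkj, rfl⟩
      · exact absurd (S.uniq hd.1 hk1 ▸ hk2) hd.2
      · obtain rfl : i = k := S.uniq hd.1 (S.e1 k j hkj)
        refine ⟨j, Finset.mem_erase.mpr ⟨hkj.symm, Finset.mem_univ _⟩, ?_, rfl⟩
        rw [hz, S.e2 i j hkj] at hzd
        exact hzd
    · intro j hj _
      rw [hz, S.e2 i j (Finset.ne_of_mem_erase hj).symm]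
  · intro d _
    rw [hz, hz, hα, add_comm (χ (α d)), CharTwo.add_self_eq_zero]
  · intro d _ _
    exact hα' d
  · intro d hd
    simp only [Finset.mem_filter, Finset.mem_univ, true_and] at hd ⊢
    rw [hα]
    exact hd.symm
  · intro d _
    exact hα d

theorem six (x1 x2 x3 x4 x5 x6 : ZMod 2) :
    x1 + x2 + (x3 + x4) + (x5 + x6) + (x6 + x1) + (x2 + x3) + (x4 + x5) = 0 := by
  revert x1 x2 x3 x4 x5 x6
  decide

theorem triangle [Fintype D] [DecidableEq D] [DecidableEq P]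
    (hα : ∀ d, α (α d) = d) (hpl : Planar φ α) {i j : Fin 8} (hi : 0 < i) (hij : i < j) :
    ∃ χ, S.Adm χ ∧ ∀ a b : Fin 8, 0 < a → a < b →
      χ (S.ε a b) + χ (S.ε b a) = if a = i ∧ b = j then 1 else 0 := by
  have h0i : (0 : Fin 8) ≠ i := hi.ne
  have hij' : i ≠ j := hij.ne
  have hj0 : j ≠ 0 := (hi.trans hij).ne'
  obtain ⟨y0, a0, b0, c0⟩ := exists_path Pi hα (S.conn 0) (S.e3 j 0 hj0) (S.e1 0 i h0i)
  obtain ⟨yi, ai, bi, ci⟩ := exists_path Pi hα (S.conn i) (S.e3 0 i h0i) (S.e1 i j hij')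
  obtain ⟨yj, aj, bj, cj⟩ := exists_path Pi hα (S.conn j) (S.e3 i j hij') (S.e1 j 0 hj0)
  obtain ⟨z, hz⟩ : ∃ z : D → ZMod 2, z = edgeFn α (S.ε 0 i) + edgeFn α (S.ε i j) +
    edgeFn α (S.ε j 0) + y0 + yi + yj := ⟨_, rfl⟩
  have hzα : ∀ d, z (α d) = z d := fun d => by
    simp only [hz, _root_.Pi.add_apply, edgeFn_α hα, a0, ai, aj]
  have hzp : ∀ q, psum Pi z q = 0 := fun q => by
    simp only [hz, psum_add, psum_edgeFn, c0, ci, cj]
    exact six _ _ _ _ _ _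
  have hedge : ∀ a b d, a ≠ b → ¬ S.Sel d → edgeFn α (S.ε a b) d = 0 := by
    intro a b d hab hs
    by_contra hne
    rcases edgeFn_ne hne with h | h
    · exact hs (Or.inr ⟨a, b, hab, h⟩)
    · exact hs (Or.inr ⟨b, a, hab.symm, by rw [h, S.e2 a b hab]⟩)
  have hy : ∀ k (y : D → ZMod 2), (∀ d, y d ≠ 0 → Pi.pc d ∈ S.B k ∧ Pi.pc (α d) ∈ S.B k) →
      ∀ d, ¬ S.Sel d → y d = 0 := by
    intro k y h d hs
    by_contra hne
    exact hs (Or.inl ⟨k, h d hne⟩)
  have hzs : ∀ d, ¬ S.Sel d → z d = 0 := fun d hs => by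
    simp only [hz, _root_.Pi.add_apply, hedge _ _ d h0i hs, hedge _ _ d hij' hs,
      hedge _ _ d hj0 hs, hy _ _ b0 d hs, hy _ _ bi d hs, hy _ _ bj d hs, add_zero]
  obtain ⟨ψ, hψ⟩ := exists_pot Pi z hzp
  obtain ⟨χ, hχ1, hχ2⟩ := hpl ψ (fun d => by rw [hψ, hψ, hzα])
  have hχ : ∀ d, χ (φ d) + χ d = z d := fun d => by rw [hχ1, hψ]
  refine ⟨χ, ⟨hχ2, fun d hs => ?_, fun p => ?_⟩, fun a b ha hab => ?_⟩
  · exact CharTwo.add_eq_zero.mp (by rw [hχ, hzs d hs])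
  · refine CharTwo.add_eq_zero.mp ?_
    rw [← psum_cob, ← hzp p]
    congr 1
    exact funext hχ
  have hab' : a ≠ b := hab.ne
  have ha0 : a ≠ 0 := ha.ne'
  have hb0 : b ≠ 0 := (ha.trans hab).ne'
  have hy' : ∀ k (y : D → ZMod 2), (∀ d, y d ≠ 0 → Pi.pc d ∈ S.B k ∧ Pi.pc (α d) ∈ S.B k) →
      y (S.ε a b) = 0 := by
    intro k y h
    by_contra hne
    have := h _ hne
    exact hab' ((S.uniq (S.e1 a b hab') this.1).trans (S.uniq this.2 (S.e3 a b hab')))
  have he : ∀ k l, k ≠ l → edgeFn α (S.ε k l) (S.ε a b) =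
      (if a = k ∧ b = l then 1 else 0) + (if a = l ∧ b = k then 1 else 0) := by
    intro k l hkl
    have e1 : S.ε a b = S.ε k l ↔ a = k ∧ b = l :=
      ⟨S.inj a b k l hab' hkl, fun h => by rw [h.1, h.2]⟩
    have e2 : S.ε a b = S.ε l k ↔ a = l ∧ b = k :=
      ⟨S.inj a b l k hab' hkl.symm, fun h => by rw [h.1, h.2]⟩
    simp only [edgeFn, S.e2 k l hkl, e1, e2]
  rw [← S.e2 a b hab', hχ2, add_comm, hχ]
  have hn : ¬ (a = j ∧ b = i) := by
    rintro ⟨rfl, rfl⟩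
    exact absurd hab (not_lt_of_gt hij)
  simp only [hz, _root_.Pi.add_apply, he _ _ h0i, he _ _ hij', he _ _ hj0, hy' _ _ b0, hy' _ _ bi,
    hy' _ _ bj, ha0, hb0, hn, false_and, and_false, if_false, add_zero, zero_add]

end Setup

end Crest.Agent.R177.NoK8Aux
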